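import Mathlib
import Vale.Agent.Lib.P228.Leafwise

/-!
# Hilbert–Smith for actions preserving a family of embedded lines

If the `p`-adic integers act continuously on a topological space `E` in such a way that every
point of `E` lies on a topologically embedded copy of the real line which every group element
maps into itself (for instance a leafwise action on a foliation by embedded lines, or a
fibre-preserving action on a line bundle), then `2 * ℤ_[p]` acts trivially; in particular the
action is not faithful.
-/

namespace Vale.Agent.Results.P228.InvariantLines

theorem result (p : ℕ) [Fact p.Prime] (E : Type*) [TopologicalSpace E]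
    (act : ℤ_[p] → E → E)
    (hcont : Continuous (fun z : ℤ_[p] × E => act z.1 z.2))
    (hzero : ∀ x, act 0 x = x)
    (hadd : ∀ a b x, act (a + b) x = act a (act b x))
    (hlines : ∀ x : E, ∃ ι : ℝ → E, Topology.IsEmbedding ι ∧ x ∈ Set.range ι ∧
        ∀ (a : ℤ_[p]) (t : ℝ), act a (ι t) ∈ Set.range ι) :
    (∀ a x, act (2 * a) x = x) ∧ ∃ a : ℤ_[p], a ≠ 0 ∧ ∀ x, act a x = x :=
  Vale.Agent.Lib.P228.invariant_lines p E act hcont hzero hadd hlines

end Vale.Agent.Results.P228.InvariantLines
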