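import Mathlib
import Vale.Agent.Lib.P228.Leafwise
import Vale.Agent.Lib.P228.Triangular

/-!
# Hilbert–Smith for three classes of actions of the `p`-adic integers, in one statement

First part: a continuous action of `ℤ_[p]` on `ℝ^n` by triangular maps (the `i`-th coordinate of
the image depends only on the first `i` coordinates of the argument) is trivial on
`2 ^ n * ℤ_[p]`, hence not faithful.  Second part: a continuous action of `ℤ_[p]` on a
topological space such that every point lies on a topologically embedded real line mapped into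
itself by every group element is trivial on `2 * ℤ_[p]`, hence not faithful.  Third part: a
faithful continuous skew-product action of `ℤ_[p]` on `B × ℝ` induces a faithful action on the
base `B`.
-/

namespace Vale.Agent.Results.P228.Omnibus

theorem result :
    (∀ (p : ℕ) [Fact p.Prime] (n : ℕ)
      (act : ℤ_[p] → (Fin n → ℝ) → (Fin n → ℝ)),
      Continuous (fun z : ℤ_[p] × (Fin n → ℝ) => act z.1 z.2) →
      (∀ x, act 0 x = x) →
      (∀ a b x, act (a + b) x = act a (act b x)) →
      (∀ a x y (i : Fin n), (∀ j : Fin n, j ≤ i → x j = y j) → act a x i = act a y i) →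
      (∀ a x, act ((2 : ℤ_[p]) ^ n * a) x = x) ∧ ∃ a : ℤ_[p], a ≠ 0 ∧ ∀ x, act a x = x) ∧
    (∀ (p : ℕ) [Fact p.Prime] (E : Type*) [TopologicalSpace E]
      (act : ℤ_[p] → E → E),
      Continuous (fun z : ℤ_[p] × E => act z.1 z.2) →
      (∀ x, act 0 x = x) →
      (∀ a b x, act (a + b) x = act a (act b x)) →
      (∀ x : E, ∃ ι : ℝ → E, Topology.IsEmbedding ι ∧ x ∈ Set.range ι ∧
        ∀ (a : ℤ_[p]) (t : ℝ), act a (ι t) ∈ Set.range ι) →
      (∀ a x, act (2 * a) x = x) ∧ ∃ a : ℤ_[p], a ≠ 0 ∧ ∀ x, act a x = x) ∧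
    (∀ (p : ℕ) [Fact p.Prime] (B : Type*) [TopologicalSpace B]
      (act : ℤ_[p] → B × ℝ → B × ℝ),
      Continuous (fun z : ℤ_[p] × (B × ℝ) => act z.1 z.2) →
      (∀ x, act 0 x = x) →
      (∀ a b x, act (a + b) x = act a (act b x)) →
      ∀ (actB : ℤ_[p] → B → B),
      (∀ a b t, (act a (b, t)).1 = actB a b) →
      (∀ a : ℤ_[p], a ≠ 0 → ∃ x, act a x ≠ x) →
      ∀ a : ℤ_[p], a ≠ 0 → ∃ b, actB a b ≠ b) := by
  refine ⟨?_, ?_, ?_⟩
  · intro p _ n act hcont hzero hadd htri
    have key : ∀ a x, act ((2 : ℤ_[p]) ^ n * a) x = x := by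
      intro a x
      have h := Vale.Agent.Lib.P228.tri_trivial act hcont hzero hadd htri a x
      have e : (2 ^ n : ℕ) • a = (2 : ℤ_[p]) ^ n * a := by
        rw [nsmul_eq_mul]; push_cast; rfl
      rw [← e]
      exact h
    refine ⟨key, (2 : ℤ_[p]) ^ n, pow_ne_zero n two_ne_zero, fun x => ?_⟩
    have := key 1 x
    rwa [mul_one] at this
  · intro p _ E _ act hcont hzero hadd hlines
    exact Vale.Agent.Lib.P228.invariant_lines p E act hcont hzero hadd hlines
  · intro p _ B _ act hcont hzero hadd actB hequiv hfaithful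
    exact Vale.Agent.Lib.P228.skew_product p B act hcont hzero hadd actB hequiv hfaithful

end Vale.Agent.Results.P228.Omnibus
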