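import Mathlib
import Vale.Agent.Lib.P228.Leafwise

/-!
# Dimension reduction for skew-product actions of the `p`-adic integers

Let `ℤ_[p]` act continuously on `B × ℝ`, where `B` is any topological space, by skew products:
the `B`-coordinate of `act a (b, t)` is `actB a b`, independent of `t`. If the action on
`B × ℝ` is faithful, then the induced action on the base `B` is faithful. Hence the
Hilbert–Smith conjecture for `B` implies it for skew-product actions on `B × ℝ`.
-/

namespace Vale.Agent.Results.P228.SkewProduct

theorem result (p : ℕ) [Fact p.Prime] (B : Type*) [TopologicalSpace B]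
    (act : ℤ_[p] → B × ℝ → B × ℝ)
    (hcont : Continuous (fun z : ℤ_[p] × (B × ℝ) => act z.1 z.2))
    (hzero : ∀ x, act 0 x = x)
    (hadd : ∀ a b x, act (a + b) x = act a (act b x))
    (actB : ℤ_[p] → B → B)
    (hequiv : ∀ a b t, (act a (b, t)).1 = actB a b)
    (hfaithful : ∀ a : ℤ_[p], a ≠ 0 → ∃ x, act a x ≠ x) :
    ∀ a : ℤ_[p], a ≠ 0 → ∃ b, actB a b ≠ b :=
  Vale.Agent.Lib.P228.skew_product p B act hcont hzero hadd actB hequiv hfaithful

end Vale.Agent.Results.P228.SkewProduct
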