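import Mathlib
import Vale.Agent.Lib.P228.Triangular

/-!
# Hilbert–Smith for triangular actions on `ℝ^n`

For every prime `p` and every `n`, the group `ℤ_[p]` of `p`-adic integers has no faithful
continuous action on `ℝ^n` by triangular homeomorphisms, i.e. by maps whose `i`-th coordinate
depends only on the first `i` coordinates of the argument. In fact the open subgroup
`2 ^ n * ℤ_[p]` acts trivially.
-/

namespace Vale.Agent.Results.P228.TriangularRn

theorem result (p : ℕ) [Fact p.Prime] (n : ℕ)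
    (act : ℤ_[p] → (Fin n → ℝ) → (Fin n → ℝ))
    (hcont : Continuous (fun z : ℤ_[p] × (Fin n → ℝ) => act z.1 z.2))
    (hzero : ∀ x, act 0 x = x)
    (hadd : ∀ a b x, act (a + b) x = act a (act b x))
    (htri : ∀ a x y (i : Fin n), (∀ j : Fin n, j ≤ i → x j = y j) → act a x i = act a y i) :
    (∀ a x, act ((2 : ℤ_[p]) ^ n * a) x = x) ∧ ∃ a : ℤ_[p], a ≠ 0 ∧ ∀ x, act a x = x := by
  have key : ∀ a x, act ((2 : ℤ_[p]) ^ n * a) x = x := by
    intro a x
    have h := Vale.Agent.Lib.P228.tri_trivial act hcont hzero hadd htri a x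
    have e : (2 ^ n : ℕ) • a = (2 : ℤ_[p]) ^ n * a := by
      rw [nsmul_eq_mul]; push_cast; rfl
    rw [← e]
    exact h
  refine ⟨key, (2 : ℤ_[p]) ^ n, pow_ne_zero n two_ne_zero, fun x => ?_⟩
  have := key 1 x
  rwa [mul_one] at this

end Vale.Agent.Results.P228.TriangularRn
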